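import Vale.Agent.P243.PlanarBM

/-!
# The area of a planar convex set is at most its extent times the length of its middle section
-/

namespace Vale.Agent.P243

open MeasureTheory Set
open scoped Pointwise

/-- Sections of a convex set over points between two nonempty sections are nonempty. -/
lemma sec_nonempty_of_mem_Icc {P : Set (ℝ × ℝ)} (hPc : Convex ℝ P) {a b : ℝ}
    (ha : ∃ p ∈ P, p.1 = a) (hb : ∃ p ∈ P, p.1 = b) {θ : ℝ} (h0 : 0 ≤ θ) (h1 : θ ≤ 1) :
    (Prod.mk (a + (b - a) * θ) ⁻¹' P).Nonempty := by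
  obtain ⟨p, hp, rfl⟩ := ha
  obtain ⟨q, hq, rfl⟩ := hb
  have hmem := hPc hp hq (sub_nonneg.mpr h1) h0 (by ring)
  refine ⟨(1 - θ) * p.2 + θ * q.2, ?_⟩
  have e : ((p.1 + (q.1 - p.1) * θ, (1 - θ) * p.2 + θ * q.2) : ℝ × ℝ) = (1 - θ) • p + θ • q := by
    ext
    · simp only [Prod.fst_add, Prod.smul_fst, smul_eq_mul]
      ring
    · simp only [Prod.snd_add, Prod.smul_snd, smul_eq_mul]
  show ((p.1 + (q.1 - p.1) * θ, (1 - θ) * p.2 + θ * q.2) : ℝ × ℝ) ∈ P
  rw [e]
  exact hmem

/-- Midpoint concavity of the section length. -/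
lemma secLen_add_le_mid {P : Set (ℝ × ℝ)} (hP : IsCompact P) (hPc : Convex ℝ P) {x x' : ℝ}
    (hx : (Prod.mk x ⁻¹' P).Nonempty) (hx' : (Prod.mk x' ⁻¹' P).Nonempty) :
    secLen P x + secLen P x' ≤ 2 * secLen P ((x + x') / 2) := by
  have h := secLen_combo hP hPc hP hPc (l := 1 / 2) (by norm_num) (by norm_num) hx hx'
  have hS : ((1 - 1 / 2 : ℝ) • P + (1 / 2 : ℝ) • P) = P := by
    rw [← hPc.add_smul (by norm_num) (by norm_num)]
    norm_num
  rw [hS] at h
  have e : (1 - 1 / 2 : ℝ) * x + 1 / 2 * x' = (x + x') / 2 := by ring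
  rw [e] at h
  linarith

/-- A compact convex set `P ⊆ [a, b] × ℝ` that meets both lines `x = a` and `x = b` has area at
most `(b - a)` times the length of its section over the midpoint `(a + b) / 2`
(Hermite-Hadamard: the section length is concave on `[a, b]`). -/
theorem planar_area_le_mid (P : Set (ℝ × ℝ)) (hP : IsCompact P) (hPc : Convex ℝ P) (a b : ℝ)
    (hab : a ≤ b) (h : ∀ p ∈ P, a ≤ p.1 ∧ p.1 ≤ b) (ha : ∃ p ∈ P, p.1 = a) (hb : ∃ p ∈ P, p.1 = b) :
    (volume P).toReal ≤ (b - a) * secLen P ((a + b) / 2) := by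
  rw [volume_eq_mul hP hab h]
  apply mul_le_mul_of_nonneg_left _ (sub_nonneg.mpr hab)
  set f : ℝ → ℝ := fun θ => secLen P (a + (b - a) * θ) with hf
  have hfi : IntervalIntegrable f volume 0 1 := intervalIntegrable_secLen_comp hP a (b - a)
  have hrefl : ∫ θ in (0:ℝ)..1, f (1 - θ) = ∫ θ in (0:ℝ)..1, f θ := by
    rw [intervalIntegral.integral_comp_sub_left (fun θ => f θ) 1]
    simp
  have hfi' : IntervalIntegrable (fun θ => f (1 - θ)) volume 0 1 := by
    have := hfi.comp_sub_left 1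
    simpa using this.symm
  have hsum : ∫ θ in (0:ℝ)..1, (f θ + f (1 - θ)) = 2 * ∫ θ in (0:ℝ)..1, f θ := by
    rw [intervalIntegral.integral_add hfi hfi', hrefl]
    ring
  have hle : ∫ θ in (0:ℝ)..1, (f θ + f (1 - θ)) ≤
      ∫ _θ in (0:ℝ)..1, 2 * secLen P ((a + b) / 2) := by
    apply intervalIntegral.integral_mono_on (by norm_num) (hfi.add hfi')
      intervalIntegrable_const
    intro θ hθ
    have h1 := sec_nonempty_of_mem_Icc hPc ha hb hθ.1 hθ.2
    have h2 := sec_nonempty_of_mem_Icc hPc ha hb (θ := 1 - θ) (by linarith [hθ.2])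
      (by linarith [hθ.1])
    have h3 := secLen_add_le_mid hP hPc h1 h2
    have e : (a + (b - a) * θ + (a + (b - a) * (1 - θ))) / 2 = (a + b) / 2 := by ring
    rw [e] at h3
    exact h3
  rw [hsum] at hle
  simp only [intervalIntegral.integral_const, sub_zero, smul_eq_mul, one_mul] at hle
  linarith

end Vale.Agent.P243
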