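import Mathlib

/-!
# The minimal width of a compact set is attained
-/

namespace Vale.Agent.P243

/-- A nonempty compact set `C` in a nontrivial finite dimensional inner product space has a
direction `n` of minimal width `w`. -/
theorem exists_min_width {F : Type*} [NormedAddCommGroup F] [InnerProductSpace ℝ F]
    [FiniteDimensional ℝ F] [Nontrivial F] (C : Set F) (hC : IsCompact C) (hCn : C.Nonempty) :
    ∃ (n : F) (w : ℝ), ‖n‖ = 1 ∧ 0 ≤ w ∧ (∀ a ∈ C, ∀ b ∈ C, inner ℝ n (a - b) ≤ w) ∧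
      ∀ v : F, ‖v‖ = 1 → ∃ a ∈ C, ∃ b ∈ C, w ≤ inner ℝ v (a - b) := by
  classical
  set D : Set F := (fun ab : F × F => ab.1 - ab.2) '' (C ×ˢ C) with hD
  have hDc : IsCompact D := (hC.prod hC).image (continuous_fst.sub continuous_snd)
  obtain ⟨c, hc⟩ := hCn
  have hDn : D.Nonempty := ⟨c - c, ⟨(c, c), ⟨hc, hc⟩, rfl⟩⟩
  have h0D : (0 : F) ∈ D := ⟨(c, c), ⟨hc, hc⟩, by simp⟩
  set g : F → ℝ := fun v => sSup ((fun d => inner ℝ v d) '' D) with hg
  have hgc : Continuous g := by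
    apply IsCompact.continuous_sSup hDc
    exact continuous_inner
  have hbdd : ∀ v : F, BddAbove ((fun d => inner ℝ v d) '' D) := fun v =>
    hDc.bddAbove_image (continuous_const.inner continuous_id).continuousOn
  have hle : ∀ v : F, ∀ d ∈ D, inner ℝ v d ≤ g v := fun v d hd =>
    le_csSup (hbdd v) ⟨d, hd, rfl⟩
  have hatt : ∀ v : F, ∃ d ∈ D, g v = inner ℝ v d := fun v =>
    hDc.exists_sSup_image_eq hDn (continuous_const.inner continuous_id).continuousOn
  have hsph : (Metric.sphere (0 : F) 1).Nonempty :=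
    NormedSpace.sphere_nonempty.mpr zero_le_one
  obtain ⟨n, hn, hmin⟩ := (isCompact_sphere (0 : F) 1).exists_isMinOn hsph hgc.continuousOn
  refine ⟨n, g n, by simpa using hn, ?_, ?_, ?_⟩
  · have := hle n 0 h0D
    simpa using this
  · intro a ha b hb
    exact hle n (a - b) ⟨(a, b), ⟨ha, hb⟩, rfl⟩
  · intro v hv
    obtain ⟨d, ⟨⟨a, b⟩, ⟨ha, hb⟩, rfl⟩, hd⟩ := hatt v
    refine ⟨a, ha, b, hb, ?_⟩
    have hvs : v ∈ Metric.sphere (0 : F) 1 := by simpa using hv
    have := hmin hvs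
    calc g n ≤ g v := this
      _ = _ := hd

end Vale.Agent.P243
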