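import Mathlib

/-!
# Widths of the slices of a convex set dominate a tent function
-/

namespace Vale.Agent.P243

open MeasureTheory Set

/-- The horizontal slice of `K ⊆ F × ℝ` at height `t`. -/
def slice {F : Type*} (K : Set (F × ℝ)) (t : ℝ) : Set F := {y | (y, t) ∈ K}

theorem slice_width_aux {F : Type*} [NormedAddCommGroup F] [InnerProductSpace ℝ F]
    (K : Set (F × ℝ)) (hKc : Convex ℝ K) (s tm t th w : ℝ)
    (h0 : 0 ≤ th) (h1 : th ≤ 1) (ht : (1 - th) * s + th * tm = t)
    (y a b v : F) (hy : y ∈ slice K s) (ha : a ∈ slice K tm) (hb : b ∈ slice K tm)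
    (hw : w ≤ inner ℝ v (a - b)) :
    ∃ a ∈ slice K t, ∃ b ∈ slice K t, w * th ≤ inner ℝ v (a - b) := by
  have key : ∀ c ∈ slice K tm, (1 - th) • y + th • c ∈ slice K t := by
    intro c hc
    have h := hKc hy hc (sub_nonneg.mpr h1) h0 (by ring)
    have e : (1 - th) • (y, s) + th • (c, tm) = ((1 - th) • y + th • c, t) := by
      ext
      · simp
      · simp [ht]
    rw [e] at h
    exact h
  refine ⟨_, key a ha, _, key b hb, ?_⟩
  have e : (1 - th) • y + th • a - ((1 - th) • y + th • b) = th • (a - b) := by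
    rw [smul_sub]; abel
  rw [e, inner_smul_right, mul_comm]
  exact mul_le_mul_of_nonneg_left hw h0

/-- If `K` is convex, reaches the heights `t₀ < t₁`, and all widths of its slice at the middle
height are at least `w ≥ 0`, then all widths of the slice at height `t ∈ [t₀, t₁]` are at least
`w * (1 - |t - (t₀ + t₁) / 2| / ((t₁ - t₀) / 2))`. -/
theorem slice_width_tent {F : Type*} [NormedAddCommGroup F] [InnerProductSpace ℝ F]
    (K : Set (F × ℝ)) (hKc : Convex ℝ K) (t₀ t₁ : ℝ) (h01 : t₀ < t₁)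
    (h0 : (slice K t₀).Nonempty) (h1 : (slice K t₁).Nonempty) (w : ℝ) (hw0 : 0 ≤ w)
    (hw : ∀ v : F, ‖v‖ = 1 → ∃ a ∈ slice K ((t₀ + t₁) / 2), ∃ b ∈ slice K ((t₀ + t₁) / 2),
      w ≤ inner ℝ v (a - b))
    (t : ℝ) (ht : t ∈ Icc t₀ t₁) (v : F) (hv : ‖v‖ = 1) :
    ∃ a ∈ slice K t, ∃ b ∈ slice K t,
      w * (1 - |t - (t₀ + t₁) / 2| / ((t₁ - t₀) / 2)) ≤ inner ℝ v (a - b) := by
  obtain ⟨a, ha, b, hb, hab⟩ := hw v hv
  obtain ⟨y0, hy0⟩ := h0
  obtain ⟨y1, hy1⟩ := h1
  have hpos : 0 < (t₁ - t₀) / 2 := by linarith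
  rcases le_total t ((t₀ + t₁) / 2) with hle | hle
  · have habs : |t - (t₀ + t₁) / 2| = (t₀ + t₁) / 2 - t := by
      rw [abs_of_nonpos (by linarith)]; ring
    rw [habs]
    refine slice_width_aux K hKc t₀ ((t₀ + t₁) / 2) t _ w ?_ ?_ ?_ y0 a b v hy0 ha hb hab
    · rw [sub_nonneg, div_le_one hpos]
      linarith [ht.1]
    · have : 0 ≤ ((t₀ + t₁) / 2 - t) / ((t₁ - t₀) / 2) := div_nonneg (by linarith) hpos.le
      linarith
    · have hne : t₁ - t₀ ≠ 0 := by linarith
      field_simp
      ring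
  · have habs : |t - (t₀ + t₁) / 2| = t - (t₀ + t₁) / 2 := abs_of_nonneg (by linarith)
    rw [habs]
    refine slice_width_aux K hKc t₁ ((t₀ + t₁) / 2) t _ w ?_ ?_ ?_ y1 a b v hy1 ha hb hab
    · rw [sub_nonneg, div_le_one hpos]
      linarith [ht.2]
    · have : 0 ≤ (t - (t₀ + t₁) / 2) / ((t₁ - t₀) / 2) := div_nonneg (by linarith) hpos.le
      linarith
    · have hne : t₁ - t₀ ≠ 0 := by linarith
      field_simp
      ring

/-- The integral of the tent function. -/
theorem lintegral_tent (t₀ t₁ : ℝ) (h01 : t₀ < t₁) (w : ℝ) (hw0 : 0 ≤ w) :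
    ∫⁻ t in Icc t₀ t₁, ENNReal.ofReal (w * (1 - |t - (t₀ + t₁) / 2| / ((t₁ - t₀) / 2)))
      = ENNReal.ofReal (w * (t₁ - t₀) / 2) := by
  set tm : ℝ := (t₀ + t₁) / 2 with htm
  set η : ℝ := (t₁ - t₀) / 2 with hη
  have hpos : 0 < η := by rw [hη]; linarith
  have hcont : Continuous fun t : ℝ => w * (1 - |t - tm| / η) := by fun_prop
  have hint : Integrable (fun t : ℝ => w * (1 - |t - tm| / η)) (volume.restrict (Icc t₀ t₁)) :=
    hcont.continuousOn.integrableOn_compact isCompact_Icc
  have hnn : 0 ≤ᵐ[volume.restrict (Icc t₀ t₁)] fun t : ℝ => w * (1 - |t - tm| / η) := by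
    refine (ae_restrict_iff' measurableSet_Icc).mpr (Filter.Eventually.of_forall ?_)
    intro t ht
    refine mul_nonneg hw0 ?_
    rw [sub_nonneg, div_le_one hpos, abs_le]
    constructor <;> simp only [htm, hη] <;> linarith [ht.1, ht.2]
  rw [← ofReal_integral_eq_lintegral_ofReal hint hnn]
  congr 1
  rw [integral_Icc_eq_integral_Ioc, ← intervalIntegral.integral_of_le h01.le]
  have hi : ∀ a b : ℝ, IntervalIntegrable (fun t : ℝ => w * (1 - |t - tm| / η)) volume a b :=
    fun a b => hcont.intervalIntegrable a b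
  rw [← intervalIntegral.integral_add_adjacent_intervals (hi t₀ tm) (hi tm t₁)]
  have h1 : ∫ t in t₀..tm, w * (1 - |t - tm| / η) = w * η / 2 := by
    have hc : ∫ t in t₀..tm, w * (1 - |t - tm| / η) = ∫ t in t₀..tm, w * (1 - (tm - t) / η) := by
      apply intervalIntegral.integral_congr
      intro t ht
      rw [uIcc_of_le (by rw [htm]; linarith)] at ht
      simp only
      rw [abs_of_nonpos (by linarith [ht.2])]
      ring_nf
    rw [hc]
    have hd : ∀ t ∈ uIcc t₀ tm, HasDerivAt (fun t : ℝ => w * (t + (tm - t) ^ 2 / (2 * η)))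
        (w * (1 - (tm - t) / η)) t := by
      intro t _
      have h2 : HasDerivAt (fun t : ℝ => (tm - t) ^ 2) (2 * (tm - t) ^ 1 * (-1)) t := by
        have := ((hasDerivAt_id' t).const_sub tm).fun_pow 2
        simpa using this
      have h3 := ((hasDerivAt_id' t).fun_add (h2.div_const (2 * η))).const_mul w
      have e : w * (1 - (tm - t) / η) = w * (1 + 2 * (tm - t) ^ 1 * -1 / (2 * η)) := by
        field_simp
        ring
      rw [e]
      exact h3
    rw [intervalIntegral.integral_eq_sub_of_hasDerivAt hd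
      ((by fun_prop : Continuous fun t : ℝ => w * (1 - (tm - t) / η)).intervalIntegrable _ _)]
    have e : tm - t₀ = η := by rw [htm, hη]; ring
    have e2 : t₀ = tm - η := by linarith
    rw [e2]
    field_simp
    ring
  have h2 : ∫ t in tm..t₁, w * (1 - |t - tm| / η) = w * η / 2 := by
    have hc : ∫ t in tm..t₁, w * (1 - |t - tm| / η) = ∫ t in tm..t₁, w * (1 - (t - tm) / η) := by
      apply intervalIntegral.integral_congr
      intro t ht
      rw [uIcc_of_le (by rw [htm]; linarith)] at ht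
      simp only
      rw [abs_of_nonneg (by linarith [ht.1])]
    rw [hc]
    have hd : ∀ t ∈ uIcc tm t₁, HasDerivAt (fun t : ℝ => w * (t - (t - tm) ^ 2 / (2 * η)))
        (w * (1 - (t - tm) / η)) t := by
      intro t _
      have h2 : HasDerivAt (fun t : ℝ => (t - tm) ^ 2) (2 * (t - tm) ^ 1 * 1) t := by
        have := ((hasDerivAt_id' t).sub_const tm).fun_pow 2
        simpa using this
      have h3 := ((hasDerivAt_id' t).fun_sub (h2.div_const (2 * η))).const_mul w
      have e : w * (1 - (t - tm) / η) = w * (1 - 2 * (t - tm) ^ 1 * 1 / (2 * η)) := by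
        field_simp
      rw [e]
      exact h3
    rw [intervalIntegral.integral_eq_sub_of_hasDerivAt hd
      ((by fun_prop : Continuous fun t : ℝ => w * (1 - (t - tm) / η)).intervalIntegrable _ _)]
    have e2 : t₁ = tm + η := by rw [htm, hη]; ring
    rw [e2]
    field_simp
    ring
  rw [h1, h2, hη]
  ring

end Vale.Agent.P243
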