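import Vale.Agent.P243.Plank.PlankSets
import Vale.Agent.P243.Coplanar.MinWidth
import Vale.Agent.P243.Coplanar.Tent
import Vale.Agent.P243.Coplanar.MidSection

/-!
# The slicing argument for cylinders whose axes are parallel to a plane (abstract form)
-/

namespace Vale.Agent.P243

open MeasureTheory Set
open scoped ENNReal

set_option linter.unusedSectionVars false

variable {F : Type*} [NormedAddCommGroup F] [InnerProductSpace ℝ F] [FiniteDimensional ℝ F]

/-- The planar shadow `{(t, ⟪n, y⟫) | (y, t) ∈ K}` of `K ⊆ F × ℝ`. -/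
def sh (K : Set (F × ℝ)) (n : F) : Set (ℝ × ℝ) := (fun p : F × ℝ => (p.2, inner ℝ n p.1)) '' K

theorem sh_compact {K : Set (F × ℝ)} (hK : IsCompact K) (n : F) : IsCompact (sh K n) :=
  hK.image (by fun_prop)

theorem sh_convex {K : Set (F × ℝ)} (hKc : Convex ℝ K) (n : F) : Convex ℝ (sh K n) := by
  have : sh K n = (((ContinuousLinearMap.snd ℝ F ℝ).prod
      ((innerSL ℝ n).comp (ContinuousLinearMap.fst ℝ F ℝ))) : F × ℝ →L[ℝ] ℝ × ℝ).toLinearMap '' K :=
    rfl
  rw [this]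
  exact hKc.linear_image _

theorem slice_compact {K : Set (F × ℝ)} (hK : IsCompact K) (t : ℝ) : IsCompact (slice K t) := by
  have : slice K t = Prod.fst '' (K ∩ {p : F × ℝ | p.2 = t}) := by
    ext y
    constructor
    · intro h
      exact ⟨(y, t), ⟨h, rfl⟩, rfl⟩
    · rintro ⟨⟨y', t'⟩, ⟨h, h1⟩, rfl⟩
      simp only [mem_ofPred_eq] at h1
      subst h1
      exact h
  rw [this]
  exact (hK.inter_right (isClosed_eq (by fun_prop) (by fun_prop))).image (by fun_prop)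

theorem slice_convex {K : Set (F × ℝ)} (hKc : Convex ℝ K) (t : ℝ) : Convex ℝ (slice K t) := by
  intro a ha b hb p q hp hq hpq
  have := hKc ha hb hp hq hpq
  simp only [Prod.smul_mk, Prod.mk_add_mk, smul_eq_mul, ← add_mul, hpq, one_mul] at this
  exact this

/-- The section of the shadow over `t` has length at most the width of the slice. -/
theorem secLen_sh_le (K : Set (F × ℝ)) (n : F) (t w : ℝ) (hw0 : 0 ≤ w)
    (hw : ∀ a ∈ slice K t, ∀ b ∈ slice K t, inner ℝ n (a - b) ≤ w) : secLen (sh K n) t ≤ w := by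
  unfold secLen
  apply ENNReal.toReal_le_of_le_ofReal hw0
  refine (Real.volume_le_diam _).trans (Metric.ediam_le ?_)
  rintro x ⟨⟨y, t'⟩, hy, hxy⟩ x' ⟨⟨y', t''⟩, hy', hxy'⟩
  simp only [Prod.mk.injEq] at hxy hxy'
  obtain ⟨rfl, rfl⟩ := hxy
  obtain ⟨rfl, rfl⟩ := hxy'
  rw [edist_dist, Real.dist_eq]
  apply ENNReal.ofReal_le_ofReal
  rw [← inner_sub_right, abs_le]
  constructor
  · have := hw y' hy' y hy
    rw [← neg_sub, inner_neg_right] at this
    linarith
  · exact hw y hy y' hy'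

/-- **Core of the slicing argument.** -/
theorem coplanar_core [Nontrivial F] (K : Set (F × ℝ)) (hK : IsCompact K) (hKc : Convex ℝ K)
    (hKn : K.Nonempty) {ι : Type*} [Fintype ι] (n : ι → F) (hn : ∀ i, ‖n i‖ = 1)
    (S : ι → Set (ℝ × ℝ)) (hcov : ∀ p ∈ K, ∃ i, (p.2, inner ℝ (n i) p.1) ∈ S i) :
    ∃ m : F, ‖m‖ = 1 ∧ volume (sh K m) ≤ 2 * ∑ i, volume (S i) := by
  classical
  obtain ⟨p₀, hp₀, hmin⟩ := hK.exists_isMinOn hKn (f := Prod.snd) continuous_snd.continuousOn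
  obtain ⟨p₁, hp₁, hmax⟩ := hK.exists_isMaxOn hKn (f := Prod.snd) continuous_snd.continuousOn
  obtain ⟨y₀, t₀⟩ := p₀
  obtain ⟨y₁, t₁⟩ := p₁
  have hle : ∀ p ∈ K, t₀ ≤ p.2 ∧ p.2 ≤ t₁ := fun p hp => ⟨hmin hp, hmax hp⟩
  have h01 : t₀ ≤ t₁ := (hle _ hp₁).1
  rcases eq_or_lt_of_le h01 with heq | hlt
  · obtain ⟨m, hm⟩ : ∃ m : F, ‖m‖ = 1 := by
      obtain ⟨x, hx⟩ := exists_ne (0 : F)
      exact ⟨(‖x‖)⁻¹ • x, norm_smul_inv_norm hx⟩
    refine ⟨m, hm, ?_⟩
    have hsub : sh K m ⊆ ({t₀} : Set ℝ) ×ˢ (univ : Set ℝ) := by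
      rintro _ ⟨p, hp, rfl⟩
      have := hle p hp
      simp only [mem_prod, mem_singleton_iff, mem_univ, and_true]
      linarith
    have hz : volume (({t₀} : Set ℝ) ×ˢ (univ : Set ℝ)) = 0 := by
      rw [Measure.volume_eq_prod, Measure.prod_prod]
      simp
    rw [measure_mono_null hsub hz]
    exact zero_le
  · set tm : ℝ := (t₀ + t₁) / 2 with htm
    have hs0 : (slice K t₀).Nonempty := ⟨y₀, hp₀⟩
    have hs1 : (slice K t₁).Nonempty := ⟨y₁, hp₁⟩
    have hne : ∀ t ∈ Icc t₀ t₁, (slice K t).Nonempty := by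
      intro t ht
      have hpos : 0 < t₁ - t₀ := by linarith
      have hc := hKc hp₀ hp₁ (a := (t₁ - t) / (t₁ - t₀)) (b := (t - t₀) / (t₁ - t₀))
        (div_nonneg (by linarith [ht.2]) hpos.le) (div_nonneg (by linarith [ht.1]) hpos.le)
        (by field_simp; ring)
      refine ⟨((t₁ - t) / (t₁ - t₀)) • y₀ + ((t - t₀) / (t₁ - t₀)) • y₁, ?_⟩
      have h2 : (t₁ - t) / (t₁ - t₀) * t₀ + (t - t₀) / (t₁ - t₀) * t₁ = t := by
        field_simp
        ring
      simp only [Prod.smul_mk, Prod.mk_add_mk, smul_eq_mul, h2] at hc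
      exact hc
    have hmid : tm ∈ Icc t₀ t₁ := ⟨by rw [htm]; linarith, by rw [htm]; linarith⟩
    obtain ⟨m, w, hm, hw0, hwle, hwge⟩ :=
      exists_min_width (slice K tm) (slice_compact hK tm) (hne tm hmid)
    refine ⟨m, hm, ?_⟩
    set S' : ι → Set (ℝ × ℝ) := fun i => toMeasurable volume (S i) with hS'
    have hS'm : ∀ i, MeasurableSet (S' i) := fun i => measurableSet_toMeasurable _ _
    have key : ∀ t ∈ Icc t₀ t₁,
        ENNReal.ofReal (w * (1 - |t - (t₀ + t₁) / 2| / ((t₁ - t₀) / 2)))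
          ≤ ∑ i, volume (Prod.mk t ⁻¹' S' i) := by
      intro t ht
      apply plank_sets (slice K t) (slice_compact hK t) (slice_convex hKc t) (hne t ht) _
        (fun v hv => slice_width_tent K hKc t₀ t₁ hlt hs0 hs1 w hw0 hwge t ht v hv) n hn
      intro y hy
      obtain ⟨i, hi⟩ := hcov (y, t) hy
      exact ⟨i, subset_toMeasurable _ _ hi⟩
    have h1 : ENNReal.ofReal (w * (t₁ - t₀) / 2) ≤ ∑ i, volume (S i) := by
      calc ENNReal.ofReal (w * (t₁ - t₀) / 2)
          = ∫⁻ t in Icc t₀ t₁,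
              ENNReal.ofReal (w * (1 - |t - (t₀ + t₁) / 2| / ((t₁ - t₀) / 2))) :=
            (lintegral_tent t₀ t₁ hlt w hw0).symm
        _ ≤ ∫⁻ t in Icc t₀ t₁, ∑ i, volume (Prod.mk t ⁻¹' S' i) :=
            setLIntegral_mono' measurableSet_Icc key
        _ ≤ ∫⁻ t, ∑ i, volume (Prod.mk t ⁻¹' S' i) := setLIntegral_le_lintegral _ _
        _ = ∑ i, ∫⁻ t, volume (Prod.mk t ⁻¹' S' i) :=
            lintegral_finsetSum _ fun i _ => measurable_measure_prodMk_left (hS'm i)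
        _ = ∑ i, volume (S' i) := by
            apply Finset.sum_congr rfl
            intro i _
            rw [Measure.volume_eq_prod, Measure.prod_apply (hS'm i)]
        _ = ∑ i, volume (S i) := by
            apply Finset.sum_congr rfl
            intro i _
            exact measure_toMeasurable _
    have h2 : (volume (sh K m)).toReal ≤ (t₁ - t₀) * secLen (sh K m) ((t₀ + t₁) / 2) :=
      planar_area_le_mid (sh K m) (sh_compact hK m) (sh_convex hKc m) t₀ t₁ h01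
        (by rintro _ ⟨p, hp, rfl⟩; exact hle p hp) ⟨_, ⟨_, hp₀, rfl⟩, rfl⟩ ⟨_, ⟨_, hp₁, rfl⟩, rfl⟩
    have h3 : secLen (sh K m) ((t₀ + t₁) / 2) ≤ w := secLen_sh_le K m _ w hw0 hwle
    have h4 : (volume (sh K m)).toReal ≤ 2 * (w * (t₁ - t₀) / 2) := by
      have : (t₁ - t₀) * secLen (sh K m) ((t₀ + t₁) / 2) ≤ (t₁ - t₀) * w :=
        mul_le_mul_of_nonneg_left h3 (by linarith)
      linarith
    have hfin : volume (sh K m) ≠ ∞ := (sh_compact hK m).measure_lt_top.ne
    calc volume (sh K m) = ENNReal.ofReal (volume (sh K m)).toReal :=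
          (ENNReal.ofReal_toReal hfin).symm
      _ ≤ ENNReal.ofReal (2 * (w * (t₁ - t₀) / 2)) := ENNReal.ofReal_le_ofReal h4
      _ = 2 * ENNReal.ofReal (w * (t₁ - t₀) / 2) := by
          rw [ENNReal.ofReal_mul (by norm_num)]
          simp
      _ ≤ 2 * ∑ i, volume (S i) := by gcongr

end Vale.Agent.P243
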