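import Vale.Agent.P243.Defs

/-!
# Orthonormal frames in Euclidean 3-space and areas in coordinate planes
-/

namespace Vale.Agent.P243

open MeasureTheory Set

/-- Two orthonormal vectors of `E3` can be completed to an orthonormal frame. -/
theorem exists_third (ν u : E3) (hν : ‖ν‖ = 1) (hu : ‖u‖ = 1) (hνu : inner ℝ ν u = 0) :
    ∃ n : E3, ‖n‖ = 1 ∧ inner ℝ ν n = 0 ∧ inner ℝ u n = 0 ∧
      ∀ x : E3, x = (inner ℝ u x) • u + (inner ℝ n x) • n + (inner ℝ ν x) • ν := by
  have hv : Orthonormal ℝ (({0, 1} : Set (Fin 3)).domRestrict (![ν, u, 0] : Fin 3 → E3)) := by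
    rw [orthonormal_iff_ite]
    rintro ⟨i, hi⟩ ⟨j, hj⟩
    simp only [Set.mem_insert_iff, Set.mem_singleton_iff] at hi hj
    have hνν : inner ℝ ν ν = (1 : ℝ) := by rw [real_inner_self_eq_norm_sq, hν]; norm_num
    have huu : inner ℝ u u = (1 : ℝ) := by rw [real_inner_self_eq_norm_sq, hu]; norm_num
    have huν : inner ℝ u ν = (0 : ℝ) := by rw [real_inner_comm]; exact hνu
    rcases hi with rfl | rfl <;> rcases hj with rfl | rfl <;>
      simp [Set.domRestrict, hν, hu, huν, hνu]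
  obtain ⟨b, hb⟩ := Orthonormal.exists_orthonormalBasis_extension_of_card_eq
    (𝕜 := ℝ) (E := E3) (ι := Fin 3) (by simp) hv
  have hb0 : b 0 = ν := by simpa using hb 0 (by simp)
  have hb1 : b 1 = u := by simpa using hb 1 (by simp)
  refine ⟨b 2, b.orthonormal.1 2, ?_, ?_, ?_⟩
  · rw [← hb0]; exact b.orthonormal.2 (by decide)
  · rw [← hb1]; exact b.orthonormal.2 (by decide)
  · intro x
    have h := (b.sum_repr' x).symm
    rw [Fin.sum_univ_three, hb0, hb1] at h
    calc x = inner ℝ ν x • ν + inner ℝ u x • u + inner ℝ (b 2) x • b 2 := h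
      _ = inner ℝ u x • u + inner ℝ (b 2) x • b 2 + inner ℝ ν x • ν := by abel

/-- The linear map sending coordinates to the point of the plane. -/
noncomputable def planeMap (ν n : E3) : WithLp 2 (ℝ × ℝ) →ₗ[ℝ] E3 where
  toFun q := q.fst • ν + q.snd • n
  map_add' a b := by
    simp only [WithLp.add_fst, WithLp.add_snd, add_smul]
    abel
  map_smul' c a := by
    simp only [WithLp.smul_fst, WithLp.smul_snd, smul_eq_mul, mul_smul, RingHom.id_apply, smul_add]

theorem planeMap_norm (ν n : E3) (hν : ‖ν‖ = 1) (hn : ‖n‖ = 1) (hνn : inner ℝ ν n = 0)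
    (q : WithLp 2 (ℝ × ℝ)) : ‖planeMap ν n q‖ = ‖q‖ := by
  have h1 : ‖planeMap ν n q‖ ^ 2 = ‖q‖ ^ 2 := by
    rw [WithLp.prod_norm_sq_eq_of_L2]
    change ‖q.fst • ν + q.snd • n‖ ^ 2 = _
    rw [norm_add_sq_real, norm_smul, norm_smul, hν, hn, inner_smul_left, inner_smul_right, hνn]
    simp
  have h2 : 0 ≤ ‖planeMap ν n q‖ := norm_nonneg _
  have h3 : 0 ≤ ‖q‖ := norm_nonneg _
  exact (pow_left_inj₀ h2 h3 (by norm_num)).mp h1

/-- The area (`μHE[2]`) of a subset of the plane spanned by two orthonormal vectors `ν`, `n` is the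
Lebesgue measure of the corresponding set of coordinates. -/
theorem area_plane (ν n : E3) (hν : ‖ν‖ = 1) (hn : ‖n‖ = 1) (hνn : inner ℝ ν n = 0)
    (S : Set (ℝ × ℝ)) :
    μHE[2] ((fun p : ℝ × ℝ => p.1 • ν + p.2 • n) '' S) = volume S := by
  have hiso : Isometry (planeMap ν n) :=
    AddMonoidHomClass.isometry_of_norm (planeMap ν n) (planeMap_norm ν n hν hn hνn)
  have himg : (fun p : ℝ × ℝ => p.1 • ν + p.2 • n) '' S
      = planeMap ν n '' ((MeasurableEquiv.toLp 2 (ℝ × ℝ)) '' S) := by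
    rw [← Set.image_comp]
    rfl
  rw [himg, hiso.euclideanHausdorffMeasure_image]
  have hfin : Module.finrank ℝ (WithLp 2 (ℝ × ℝ)) = 2 := by
    rw [(WithLp.linearEquiv 2 ℝ (ℝ × ℝ)).finrank_eq]
    simp
  have hvol : (μHE[2] : Measure (WithLp 2 (ℝ × ℝ))) = volume := by
    rw [← hfin]
    exact InnerProductSpace.euclideanHausdorffMeasure_eq_volume
  rw [hvol, MeasurableEquiv.image_eq_preimage_symm]
  exact (WithLp.volume_preserving_symm_measurableEquiv_toLp_prod ℝ ℝ).measure_preimage_equiv S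

end Vale.Agent.P243
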