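import Vale.Agent.P243.Coplanar.Core
import Vale.Agent.P243.Coplanar.Frame
import Vale.Agent.P243.Final

/-!
# Bang's half-area inequality for cylinders whose axes are parallel to a plane
-/

namespace Vale.Agent.P243

open MeasureTheory Set
open scoped ENNReal

theorem inner_proj_eq (ν : E3) (hν : ‖ν‖ = 1) (n : perp ν) (x : E3) :
    inner ℝ n (proj ν x) = inner ℝ (n : E3) x := by
  have h1 : inner ℝ n (proj ν x) = inner ℝ (n : E3) ((proj ν x : perp ν) : E3) := rfl
  have h2 := proj_add_inner_smul ν hν x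
  have h3 : inner ℝ (n : E3) ν = 0 := Submodule.mem_orthogonal_singleton_iff_inner_left.1 n.2
  rw [h1]
  conv_rhs => rw [← h2]
  rw [inner_add_right, inner_smul_right, h3, mul_zero, add_zero]

/-- The shadow of `K` in direction `u`, in the coordinates of the frame `(u, n, ν)`. -/
theorem shadow_eq_image (K : Set E3) (ν u n : E3) (hu : ‖u‖ = 1)
    (hx : ∀ x : E3, x = (inner ℝ u x) • u + (inner ℝ n x) • n + (inner ℝ ν x) • ν) :
    shadow K u = (fun p : ℝ × ℝ => p.1 • ν + p.2 • n) ''
      ((fun x : E3 => (inner ℝ ν x, inner ℝ n x)) '' K) := by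
  rw [Set.image_image]
  unfold shadow
  apply Set.image_congr
  intro x _
  rw [Submodule.starProjection_orthogonal_val, Submodule.starProjection_unit_singleton ℝ hu]
  have h := hx x
  simp only
  rw [sub_eq_iff_eq_add]
  calc x = (inner ℝ u x) • u + (inner ℝ n x) • n + (inner ℝ ν x) • ν := h
    _ = _ := by abel

/-- **Coplanar axes.** If all axes are orthogonal to the unit vector `ν`, then the total base area
is at least half the area of the shadow of `K` in some direction orthogonal to `ν`. -/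
theorem coplanar_axes {ι : Type*} [Fintype ι] (K : Set E3) (hK : IsCompact K) (hKc : Convex ℝ K)
    (hKn : K.Nonempty) (u : ι → E3) (hu : ∀ i, ‖u i‖ = 1) (B : ι → Set E3)
    (hBu : ∀ i, ∀ b ∈ B i, inner ℝ (u i) b = 0) (hBfin : ∀ i, μHE[2] (B i) ≠ ∞)
    (hcov : K ⊆ ⋃ i, cylinder (u i) (B i)) (ν : E3) (hν : ‖ν‖ = 1)
    (hplane : ∀ i, inner ℝ ν (u i) = 0) :
    ∃ w : E3, ‖w‖ = 1 ∧ inner ℝ ν w = 0 ∧
      1 / 2 * planarArea (shadow K w) ≤ ∑ i, planarArea (B i) := by
  classical
  have hnt : Nontrivial (perp ν) :=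
    Module.nontrivial_of_finrank_pos (R := ℝ) (by rw [finrank_perp ν hν]; norm_num)
  choose n hn1 hnν hnu hnx using fun i => exists_third ν (u i) hν (hu i) (hplane i)
  -- the normals as elements of the plane `ν^⊥`
  let n' : ι → perp ν := fun i =>
    ⟨n i, Submodule.mem_orthogonal_singleton_iff_inner_right.2 (hnν i)⟩
  have hn'1 : ∀ i, ‖n' i‖ = 1 := fun i => hn1 i
  set Ψ := split ν hν with hΨ
  set S : ι → Set (ℝ × ℝ) := fun i => {p | p.1 • ν + p.2 • n i ∈ B i} with hS
  have hBS : ∀ i, B i = (fun p : ℝ × ℝ => p.1 • ν + p.2 • n i) '' S i := by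
    intro i
    ext b
    constructor
    · intro hb
      refine ⟨(inner ℝ ν b, inner ℝ (n i) b), ?_, ?_⟩
      · have := hnx i b
        rw [hBu i b hb, zero_smul, zero_add, add_comm] at this
        simp only [hS, mem_ofPred_eq]
        rw [← this]
        exact hb
      · have := hnx i b
        rw [hBu i b hb, zero_smul, zero_add, add_comm] at this
        exact this.symm
    · rintro ⟨p, hp, rfl⟩
      exact hp
  have hvol : ∀ i, μHE[2] (B i) = volume (S i) := by
    intro i
    conv_lhs => rw [hBS i]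
    exact area_plane ν (n i) hν (hn1 i) (hnν i) (S i)
  have hcov' : ∀ p ∈ Ψ '' K, ∃ i, (p.2, inner ℝ (n' i) p.1) ∈ S i := by
    rintro _ ⟨x, hxK, rfl⟩
    obtain ⟨i, hi⟩ := Set.mem_iUnion.1 (hcov hxK)
    obtain ⟨b, hb, t, rfl⟩ := hi
    refine ⟨i, ?_⟩
    have e1 : (Ψ (b + t • u i)).2 = inner ℝ ν b := by
      have : (Ψ (b + t • u i)).2 = inner ℝ ν (b + t • u i) := rfl
      rw [this, inner_add_right, inner_smul_right, hplane i, mul_zero, add_zero]
    have e2 : inner ℝ (n' i) (Ψ (b + t • u i)).1 = inner ℝ (n i) b := by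
      have : (Ψ (b + t • u i)).1 = proj ν (b + t • u i) := rfl
      rw [this, inner_proj_eq ν hν]
      have h0 : inner ℝ (n i) (u i) = 0 := by rw [real_inner_comm]; exact hnu i
      change inner ℝ (n i) (b + t • u i) = _
      rw [inner_add_right, inner_smul_right, h0, mul_zero, add_zero]
    rw [e1, e2]
    have := hnx i b
    rw [hBu i b hb, zero_smul, zero_add, add_comm] at this
    simp only [hS, mem_ofPred_eq]
    rw [← this]
    exact hb
  obtain ⟨m, hm1, hm⟩ := coplanar_core (Ψ '' K) (hK.image Ψ.continuous)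
    (hKc.linear_image Ψ.toLinearMap) (hKn.image _) n' hn'1 S hcov'
  have hmν : inner ℝ ν (m : E3) = 0 := Submodule.mem_orthogonal_singleton_iff_inner_right.1 m.2
  obtain ⟨w, hw1, hwν, hwm, hwx⟩ := exists_third ν (m : E3) hν hm1 hmν
  refine ⟨w, hw1, hwν, ?_⟩
  -- the frame `(w, m, ν)`
  have hframe : ∀ x : E3, x = (inner ℝ w x) • w + (inner ℝ (m : E3) x) • (m : E3)
      + (inner ℝ ν x) • ν := by
    intro x
    have := hwx x
    conv_lhs => rw [this]
    abel
  have hsh : (fun x : E3 => (inner ℝ ν x, inner ℝ (m : E3) x)) '' K = sh (Ψ '' K) m := by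
    unfold sh
    rw [Set.image_image]
    apply Set.image_congr
    intro x _
    have e2 : inner ℝ m (Ψ x).1 = inner ℝ (m : E3) x := inner_proj_eq ν hν m x
    have e1 : (Ψ x).2 = inner ℝ ν x := rfl
    rw [e1, e2]
  have harea : μHE[2] (shadow K w) = volume (sh (Ψ '' K) m) := by
    rw [shadow_eq_image K ν w (m : E3) hw1 hframe, hsh]
    exact area_plane ν (m : E3) hν hm1 hmν _
  have hsum : ∑ i, volume (S i) ≠ ∞ := by
    apply ENNReal.sum_ne_top.2
    intro i _
    rw [← hvol i]
    exact hBfin i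
  have h1 : planarArea (shadow K w) ≤ 2 * ∑ i, planarArea (B i) := by
    unfold planarArea
    rw [harea]
    have := ENNReal.toReal_mono (ENNReal.mul_ne_top (by simp) hsum) hm
    rw [ENNReal.toReal_mul, ENNReal.toReal_sum (fun i _ => by rw [← hvol i]; exact hBfin i)] at this
    simp only [hvol]
    simpa using this
  linarith

end Vale.Agent.P243
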